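import Vale.Agent.Lib.P202.Len

open IsLocalRing Filter Topology Vale.Agent.Lib.P202

universe u v

/-- Let `R → S` be a flat local map of Noetherian local rings, with `I = m S` and `n` the maximal
ideal of `S`. Let `y₁, …, y_w`, `w ≥ 2`, generate `n` modulo `I`, let `n ^ t ≤ I`, and suppose that
forms of degree `j ≤ r < t` in the `y` with a coefficient outside `n` never lie in
`n ^ (j + 1) + I`. With `ℓ = length (S / I)` and `d = dim R = dim S`,
`ℓ e(R) ≤ (t - r) ^ d e(S)` and `e(S) ≤ ℓ e(R)`, hence `e(R) ≤ e(S)` as soon as `(t - r) ^ d ≤ ℓ`.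
Here `e(R)`, `e(S)` are the Hilbert-Samuel limits. -/
theorem Vale.Agent.Results.P202.LoewyClosedFibre.result
    {R : Type u} {S : Type v} [CommRing R] [IsLocalRing R] [IsNoetherianRing R]
    [CommRing S] [IsLocalRing S] [IsNoetherianRing S] [Algebra R S]
    [IsLocalHom (algebraMap R S)] [Module.Flat R S]
    (w : ℕ) (hw : 2 ≤ w) (y : Fin w → S)
    (hgen : maximalIdeal S = (maximalIdeal R).map (algebraMap R S) ⊔ Ideal.span (Set.range y))
    (t r : ℕ) (hrt : r < t)
    (hLoewy : maximalIdeal S ^ t ≤ (maximalIdeal R).map (algebraMap R S))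
    (hindep : ∀ j ≤ r, ∀ τ : (Fin w → ℕ) → S,
      (∑ γ ∈ Finset.piAntidiag Finset.univ j, τ γ * ∏ i, y i ^ γ i) ∈
        maximalIdeal S ^ (j + 1) ⊔ (maximalIdeal R).map (algebraMap R S) →
        ∀ γ ∈ Finset.piAntidiag Finset.univ j, τ γ ∈ maximalIdeal S)
    (dR dS : ℕ) (hdR : ringKrullDim R = dR) (hdS : ringKrullDim S = dS) (eR eS : ℝ)
    (hR : Tendsto (fun N : ℕ => (dR.factorial : ℝ) *
      (Module.length R (R ⧸ maximalIdeal R ^ N)).toNat / (N : ℝ) ^ dR) atTop (𝓝 eR))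
    (hS : Tendsto (fun N : ℕ => (dS.factorial : ℝ) *
      (Module.length S (S ⧸ maximalIdeal S ^ N)).toNat / (N : ℝ) ^ dS) atTop (𝓝 eS)) :
    ((Module.length S (S ⧸ (maximalIdeal R).map (algebraMap R S))).toNat : ℝ) * eR ≤
        ((t - r : ℕ) : ℝ) ^ dR * eS ∧
      eS ≤ ((Module.length S (S ⧸ (maximalIdeal R).map (algebraMap R S))).toNat : ℝ) * eR ∧
      ((t - r) ^ dR ≤ (Module.length S (S ⧸ (maximalIdeal R).map (algebraMap R S))).toNat →
        eR ≤ eS) := by
  have hdim : dS = dR := by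
    have h := dim_eq (R := R) (S := S) t hLoewy
    rw [hdR, hdS] at h
    exact_mod_cast h
  subst hdim
  set I := (maximalIdeal R).map (algebraMap R S) with hI
  have hne : I ≠ ⊤ := (map_maximalIdeal_lt_top _).ne
  have hIn : I ≤ maximalIdeal S := le_maximalIdeal hne
  have hlfin : Module.length S (S ⧸ I) ≠ ⊤ := length_quot_ne_top S I t hLoewy
  have hAfin : ∀ N, Module.length R (R ⧸ maximalIdeal R ^ N) ≠ ⊤ := fun N =>
    length_quot_ne_top R _ N le_rfl
  have hBfin : ∀ N, Module.length S (S ⧸ maximalIdeal S ^ N) ≠ ⊤ := fun N =>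
    length_quot_ne_top S _ N le_rfl
  have h1 : ∀ N, (Module.length S (S ⧸ maximalIdeal S ^ N)).toNat ≤
      (Module.length S (S ⧸ I)).toNat * (Module.length R (R ⧸ maximalIdeal R ^ N)).toNat := by
    intro N
    have h2 : Module.length S (S ⧸ maximalIdeal S ^ N) ≤ Module.length S (S ⧸ I ^ N) :=
      length_quot_anti (Ideal.pow_right_mono hIn N)
    rw [length_map_pow] at h2
    have h3 := ENat.toNat_le_toNat h2 (WithTop.mul_ne_top (hAfin N) hlfin)
    rw [ENat.toNat_mul] at h3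
    rwa [mul_comm] at h3
  have h2 : ∀ N, 1 ≤ N → (Module.length S (S ⧸ I)).toNat *
      (Module.length R (R ⧸ maximalIdeal R ^ N)).toNat ≤
      (Module.length S (S ⧸ maximalIdeal S ^ ((t - r) * N + r))).toNat := by
    intro N hN
    obtain ⟨e, rfl⟩ : ∃ e, N = e + 1 := ⟨N - 1, by omega⟩
    have hc := contain_pow hw y hgen t r hrt hLoewy hindep e
    have h3 : Module.length S (S ⧸ I ^ (e + 1)) ≤
        Module.length S (S ⧸ maximalIdeal S ^ ((t - r) * (e + 1) + r)) :=
      length_quot_anti hc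
    rw [length_map_pow] at h3
    have h4 := ENat.toNat_le_toNat h3 (hBfin _)
    rw [ENat.toNat_mul] at h4
    rwa [mul_comm]
  have hlam : 1 ≤ t - r := by omega
  obtain ⟨hineq1, hineq2⟩ := limit_ineq _ _ dS (Module.length S (S ⧸ I)).toNat (t - r) r hlam eR eS
    hR hS h1 h2
  refine ⟨hineq1, hineq2, fun hle => ?_⟩
  have hS0 : 0 ≤ eS := limit_nonneg _ dS eS hS
  have hlpos : 0 < (Module.length S (S ⧸ I)).toNat := by
    rw [Nat.pos_iff_ne_zero, Ne, ENat.toNat_eq_zero, not_or]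
    refine ⟨?_, hlfin⟩
    have : Nontrivial (S ⧸ I) := Ideal.Quotient.nontrivial_iff.mpr hne
    exact (Module.length_pos (R := S) (M := S ⧸ I)).ne'
  have hle' : (((t - r : ℕ) : ℝ)) ^ dS ≤ ((Module.length S (S ⧸ I)).toNat : ℝ) := by
    exact_mod_cast hle
  have hlpos' : (0 : ℝ) < ((Module.length S (S ⧸ I)).toNat : ℝ) := by exact_mod_cast hlpos
  have h5 : ((Module.length S (S ⧸ I)).toNat : ℝ) * eR ≤
      ((Module.length S (S ⧸ I)).toNat : ℝ) * eS :=
    hineq1.trans (mul_le_mul_of_nonneg_right hle' hS0)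
  exact le_of_mul_le_mul_left h5 hlpos'
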